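import Vale.Agent.Lib.P150.Overlap

/-!
P150: for every realisation of the disorder, every `β` and every `n ≥ 1`, the spectral gap of the
heat-bath dynamics of the Sherrington-Kirkpatrick model satisfies `gap * (n ⟨R₁₂²⟩) ≤ 1`, where
`R₁₂` is the overlap of two independent samples of the Gibbs measure; equivalently
`gap * ∑_{k,l} ⟨x_k x_l⟩² ≤ n`.
-/

namespace Vale.Agent.Results.P150.OverlapBound

open Vale.Agent.Lib.P150

theorem result (n : ℕ) (hn : 0 < n) (β : ℝ) (g : Fin n → Fin n → ℝ) :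
    gap n β g * ((n : ℝ) * overlapSq n β g) ≤ 1 ∧
      gap n β g * ∑ k, ∑ l, corr n β g k l ^ 2 ≤ n :=
  ⟨gap_overlap_le β g hn, gap_corr_le β g⟩

end Vale.Agent.Results.P150.OverlapBound
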